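import Vale.Agent.P260.H135.Conv

/-!
# The Borel conjecture for pairs of closed aspherical manifolds whose orbits shadow each other
-/

namespace Vale.Agent.Results.P260.GlobalShadowing

open Vale.Agent.P260.H135

/-- Rigidity of closed manifolds `X / Γ`, `Y / Γ` whose coverings carry coarsely expansive actions
of a group `Λ` containing `Γ`. -/
theorem result (n : ℕ) (Λ : Type) [Group Λ] (Γ : Subgroup Λ) (X Y : Type)
    [TopologicalSpace X] [T2Space X] [ConnectedSpace X] [ChartedSpace (EuclideanSpace ℝ (Fin n)) X]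
    [TopologicalSpace Y] [T2Space Y] [ConnectedSpace Y] [ChartedSpace (EuclideanSpace ℝ (Fin n)) Y]
    [MulAction Λ X] [ContinuousConstSMul Λ X] [ProperlyDiscontinuousSMul Γ X]
    [CompactSpace (MulAction.orbitRel.Quotient Γ X)]
    [MulAction Λ Y] [ContinuousConstSMul Λ Y] [ProperlyDiscontinuousSMul Γ Y]
    [CompactSpace (MulAction.orbitRel.Quotient Γ Y)]
    (hX : ∀ γ : Γ, ∀ x : X, γ • x = x → γ = 1) (hY : ∀ γ : Γ, ∀ y : Y, γ • y = y → γ = 1)
    (hE : Expansive Γ X) :
    (Expansive Γ Y → (GlobShadow Γ X Y ∨ GlobShadow Γ Y X) →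
      (∃ k : Y ≃ₜ X, ∀ l : Λ, ∀ y, k (l • y) = l • k y) ∧
      Nonempty (MulAction.orbitRel.Quotient Γ Y ≃ₜ MulAction.orbitRel.Quotient Γ X)) ∧
    ((∃ k : Y ≃ₜ X, ∀ l : Λ, ∀ y, k (l • y) = l • k y) →
      Expansive Γ Y ∧ GlobShadow Γ X Y ∧ GlobShadow Γ Y X) ∧
    (GlobShadow Γ X Y → ∃ k : Y → X, Continuous k ∧ ∀ l : Λ, ∀ y, k (l • y) = l • k y) ∧
    (Γ.Normal → Shadowing Γ X → GlobShadow Γ X Y) := by
  have : LocallyCompactSpace X := ChartedSpace.locallyCompactSpace (EuclideanSpace ℝ (Fin n)) X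
  have : LocallyCompactSpace Y := ChartedSpace.locallyCompactSpace (EuclideanSpace ℝ (Fin n)) Y
  have G : Geom Γ X := geom_of hX
  have H : Geom Γ Y := geom_of hY
  refine ⟨?_, ?_, ?_, ?_⟩
  · intro hEY hS
    have h1 : ∃ k : Y ≃ₜ X, ∀ l : Λ, ∀ y, k (l • y) = l • k y := by
      rcases hS with hS | hS
      · exact rigidity (n := n) G H hE hEY hS
      · obtain ⟨k, hk⟩ := rigidity (n := n) H G hEY hE hS
        refine ⟨k.symm, fun l y => k.injective ?_⟩
        rw [hk, k.apply_symm_apply, k.apply_symm_apply]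
    refine ⟨h1, ?_⟩
    obtain ⟨k, hk⟩ := h1
    exact quot_homeo k hk
  · rintro ⟨k, hk⟩
    refine ⟨expansive_of_homeo k hk hE, globShadow_of_homeo G k hk,
      globShadow_of_homeo H k.symm fun l x => k.injective ?_⟩
    rw [hk, k.apply_symm_apply, k.apply_symm_apply]
  · exact exists_semiconj G H hE
  · intro hN hS
    exact globShadow_of_shadowing G H hS

end Vale.Agent.Results.P260.GlobalShadowing
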